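import Vale.Agent.P161E.Defs
import Vale.Agent.P161E.Main

open Vale.Agent.P161E

theorem Vale.Agent.Results.P161.A_full.result (d : ℕ) (hd : 3 ≤ d) :
    (tree d).IsTree ∧ (∀ v, ((tree d).neighborSet v).ncard = d) ∧
    ∀ β : ℝ, 0 ≤ β → (∃ μ, IsFreeIsing (tree d) (Real.tanh β) μ) ∧
      ∀ μ, IsFreeIsing (tree d) (Real.tanh β) μ →
        (IsFIID (tree d) μ ↔ Real.tanh β ≤ ((d : ℝ) - 1) ^ (-(1 / 2) : ℝ)) :=
  main d hd
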